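import Mathlib

/-!
R192/L/Ball: balls for a neighbourhood system `U`, clusters of a set `R`, and extraction of long chains
from an infinite cluster (deterministic part of block L).
-/

set_option autoImplicit false

noncomputable section

namespace Crest.Agent.R192.L

variable {J : Type}

open Classical in
/-- ball of radius `n` for the graph `i ∈ U j` -/
def ball (U : J → Finset J) : ℕ → J → Finset J
  | 0, j => {j}
  | n + 1, j => (ball U n j).biUnion U

theorem mem_ball_zero {U : J → Finset J} {i j : J} : i ∈ ball U 0 j ↔ i = j := by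
  simp [ball]

theorem mem_ball_succ {U : J → Finset J} {n : ℕ} {i j : J} :
    i ∈ ball U (n + 1) j ↔ ∃ k ∈ ball U n j, i ∈ U k := by
  simp [ball]

theorem mem_ball_one {U : J → Finset J} {i j : J} : i ∈ ball U 1 j ↔ i ∈ U j := by
  simp [mem_ball_succ, mem_ball_zero]

theorem card_ball {U : J → Finset J} {Δ : ℕ} (hΔ : ∀ j, (U j).card ≤ Δ) (n : ℕ) (j : J) :
    (ball U n j).card ≤ Δ ^ n := by
  classical
  induction n with
  | zero => simp [ball]
  | succ n ih =>
    have h1 : ball U (n + 1) j = (ball U n j).biUnion U := by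
      ext i; simp [mem_ball_succ]
    rw [h1, pow_succ]
    exact (Finset.card_biUnion_le_card_mul _ _ Δ fun a _ => hΔ a).trans (Nat.mul_le_mul_right _ ih)

theorem ball_trans {U : J → Finset J} {m n : ℕ} {i j k : J} (h1 : i ∈ ball U m j)
    (h2 : k ∈ ball U n i) : k ∈ ball U (m + n) j := by
  induction n generalizing k with
  | zero => rw [mem_ball_zero] at h2; subst h2; exact h1
  | succ n ih =>
    obtain ⟨a, ha, hk⟩ := mem_ball_succ.1 h2
    exact mem_ball_succ.2 ⟨a, ih ha, hk⟩

theorem ball_symm {U : J → Finset J} (hs : ∀ i j, i ∈ U j → j ∈ U i) {n : ℕ} {i j : J}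
    (h : i ∈ ball U n j) : j ∈ ball U n i := by
  induction n generalizing i with
  | zero => rw [mem_ball_zero] at h ⊢; exact h.symm
  | succ n ih =>
    obtain ⟨a, ha, hk⟩ := mem_ball_succ.1 h
    have := ball_trans (mem_ball_one.2 (hs _ _ hk)) (ih ha)
    rwa [add_comm] at this

theorem ball_mono {U : J → Finset J} (hr : ∀ j, j ∈ U j) {m n : ℕ} (hmn : m ≤ n) {i j : J}
    (h : i ∈ ball U m j) : i ∈ ball U n j := by
  induction n, hmn using Nat.le_induction with
  | base => exact h
  | succ n _ ih => exact mem_ball_succ.2 ⟨i, ih, hr i⟩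

theorem ball_equiv {U : J → Finset J} (π : J ≃ J) (hπ : ∀ i j, π i ∈ U (π j) ↔ i ∈ U j) (n : ℕ)
    (i j : J) : π i ∈ ball U n (π j) ↔ i ∈ ball U n j := by
  induction n generalizing i with
  | zero => simp [mem_ball_zero]
  | succ n ih =>
    rw [mem_ball_succ, mem_ball_succ]
    constructor
    · rintro ⟨k, hk, hi⟩
      obtain ⟨k, rfl⟩ := π.surjective k
      exact ⟨k, (ih k).1 hk, (hπ _ _).1 hi⟩
    · rintro ⟨k, hk, hi⟩
      exact ⟨π k, (ih k).2 hk, (hπ _ _).2 hi⟩

theorem disjoint_of_not_mem_ball {U : J → Finset J} (hs : ∀ i j, i ∈ U j → j ∈ U i) {i j : J}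
    (h : i ∉ ball U 2 j) : Disjoint (U i) (U j) := by
  rw [Finset.disjoint_left]
  intro a hi hj
  exact h (mem_ball_succ.2 ⟨a, mem_ball_one.2 hj, hs _ _ hi⟩)

/-- points reached from `j` in at most `n` steps of length `≤ 8` inside `R` -/
def V (U : J → Finset J) (R : J → Prop) : ℕ → J → J → Prop
  | 0, j, x => x = j
  | n + 1, j, x => V U R n j x ∨ (R x ∧ ∃ y, V U R n j y ∧ x ∈ ball U 8 y)

/-- the cluster of `j` -/
def K (U : J → Finset J) (R : J → Prop) (j x : J) : Prop := ∃ n, V U R n j x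

theorem V_mono {U : J → Finset J} {R : J → Prop} {m n : ℕ} (hmn : m ≤ n) {j x : J}
    (h : V U R m j x) : V U R n j x := by
  induction n, hmn using Nat.le_induction with
  | base => exact h
  | succ n _ ih => exact Or.inl ih

theorem K_self (U : J → Finset J) (R : J → Prop) (j : J) : K U R j j := ⟨0, rfl⟩

theorem K_of_near {U : J → Finset J} {R : J → Prop} {j j' : J} (hR : R j') (h : j' ∈ ball U 8 j)
    {x : J} (hx : K U R j' x) : K U R j x := by
  obtain ⟨n, hn⟩ := hx
  refine ⟨n + 1, ?_⟩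
  induction n generalizing x with
  | zero =>
    have : x = j' := hn
    subst this
    exact Or.inr ⟨hR, j, rfl, h⟩
  | succ n ih =>
    rcases hn with hn | ⟨hx, y, hy, hxy⟩
    · exact Or.inl (ih hn)
    · exact Or.inr ⟨hx, y, ih hy, hxy⟩

theorem V_finite (U : J → Finset J) (R : J → Prop) (n : ℕ) (j : J) : {x | V U R n j x}.Finite := by
  induction n with
  | zero => exact (Set.finite_singleton j).subset fun x hx => hx
  | succ n ih =>
    refine (ih.union (ih.biUnion fun y _ => (ball U 8 y).finite_toSet)).subset ?_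
    rintro x (hx | ⟨-, y, hy, hxy⟩)
    · exact Or.inl hx
    · exact Or.inr (Set.mem_biUnion (show y ∈ {x | V U R n j x} from hy) hxy)

theorem V_equiv {U : J → Finset J} (π : J ≃ J) (hπ : ∀ i j, π i ∈ U (π j) ↔ i ∈ U j)
    {R R' : J → Prop} (hR : ∀ j, R' (π j) ↔ R j) (n : ℕ) (j x : J) :
    V U R' n (π j) (π x) ↔ V U R n j x := by
  induction n generalizing x with
  | zero => simp [V]
  | succ n ih =>
    simp only [V, ih, hR]
    refine or_congr Iff.rfl (and_congr Iff.rfl ⟨?_, ?_⟩)
    · rintro ⟨y, hy, hxy⟩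
      obtain ⟨y, rfl⟩ := π.surjective y
      exact ⟨y, (ih y).1 hy, (ball_equiv π hπ _ _ _).1 hxy⟩
    · rintro ⟨y, hy, hxy⟩
      exact ⟨π y, (ih y).2 hy, (ball_equiv π hπ _ _ _).2 hxy⟩

theorem K_equiv {U : J → Finset J} (π : J ≃ J) (hπ : ∀ i j, π i ∈ U (π j) ↔ i ∈ U j)
    {R R' : J → Prop} (hR : ∀ j, R' (π j) ↔ R j) (j x : J) :
    K U R' (π j) (π x) ↔ K U R j x :=
  exists_congr fun n => V_equiv π hπ hR n j x

/-- `x` is first reached at step `n` -/
def Lev (U : J → Finset J) (R : J → Prop) (j : J) (n : ℕ) (x : J) : Prop :=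
  V U R n j x ∧ ∀ m < n, ¬ V U R m j x

theorem exists_lev {U : J → Finset J} {R : J → Prop} {j : J} (h : ¬ {x | K U R j x}.Finite) (n : ℕ) :
    ∃ N, n ≤ N ∧ ∃ x, Lev U R j N x := by
  classical
  have h1 : ∃ x, K U R j x ∧ ¬ V U R n j x := by
    by_contra hc
    push Not at hc
    exact h ((V_finite U R n j).subset fun x hx => hc x hx)
  obtain ⟨x, hx, hn⟩ := h1
  refine ⟨Nat.find hx, ?_, x, Nat.find_spec hx, fun m hm => Nat.find_min hx hm⟩
  by_contra hlt
  exact hn (V_mono (not_le.1 hlt).le (Nat.find_spec hx))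

theorem Lev.pred {U : J → Finset J} {R : J → Prop} {j : J} {n : ℕ} {x : J} (h : Lev U R j (n + 1) x) :
    R x ∧ ∃ y, Lev U R j n y ∧ x ∈ ball U 8 y := by
  rcases h.1 with h1 | ⟨hx, y, hy, hxy⟩
  · exact absurd h1 (h.2 n (Nat.lt_succ_self n))
  · refine ⟨hx, y, ⟨hy, fun m hm hV => ?_⟩, hxy⟩
    exact h.2 (m + 1) (Nat.succ_lt_succ hm) (Or.inr ⟨hx, y, hV, hxy⟩)

theorem Lev.far {U : J → Finset J} {R : J → Prop} {j : J} {m n : ℕ} {x y : J} (hx : Lev U R j m x)
    (hy : Lev U R j n y) (hmn : m + 2 ≤ n) : y ∉ ball U 8 x := by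
  intro hxy
  obtain ⟨n, rfl⟩ : ∃ n', n = n' + 1 := ⟨n - 1, by omega⟩
  exact hy.2 (m + 1) (by omega) (Or.inr ⟨hy.pred.1, x, hx.1, hxy⟩)

theorem exists_path {U : J → Finset J} {R : J → Prop} {j : J} (N : ℕ) (x : J) (h : Lev U R j N x) :
    ∃ p : ℕ → J, p N = x ∧ (∀ k ≤ N, Lev U R j k (p k)) ∧ ∀ k < N, p (k + 1) ∈ ball U 8 (p k) := by
  classical
  induction N generalizing x with
  | zero => exact ⟨fun _ => x, rfl, fun k hk => by rwa [Nat.le_zero.1 hk], fun k hk => absurd hk (by omega)⟩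
  | succ N ih =>
    obtain ⟨-, y, hy, hxy⟩ := h.pred
    obtain ⟨p, hp, h1, h2⟩ := ih y hy
    refine ⟨Function.update p (N + 1) x, by simp, fun k hk => ?_, fun k hk => ?_⟩
    · by_cases hkN : k = N + 1
      · subst hkN; simpa using h
      · rw [Function.update_of_ne hkN]; exact h1 k (by omega)
    · rw [Function.update_of_ne (show k ≠ N + 1 by omega)]
      by_cases hkN : k = N
      · subst hkN; simpa [hp] using hxy
      · rw [Function.update_of_ne (show k + 1 ≠ N + 1 by omega)]; exact h2 k (by omega)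

open Classical in
/-- a chain of `n + 1` points of `R` starting at `x`, with steps `≤ 16` and neighbourhoods disjoint from each
other and from `s` -/
def W (U : J → Finset J) (R : J → Prop) : ℕ → J → Finset J → Prop
  | 0, x, s => R x ∧ Disjoint (U x) s
  | n + 1, x, s => (R x ∧ Disjoint (U x) s) ∧ ∃ y ∈ ball U 16 x, W U R n y (s ∪ U x)

theorem W_of_infinite {U : J → Finset J} (hr : ∀ j, j ∈ U j) (hs : ∀ i j, i ∈ U j → j ∈ U i)
    {R : J → Prop} {j : J} (hj : R j) (h : ¬ {x | K U R j x}.Finite) (n : ℕ) : W U R n j ∅ := by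
  classical
  obtain ⟨N, hN, x, hx⟩ := exists_lev h (2 * n)
  obtain ⟨p, -, h1, h2⟩ := exists_path N x hx
  have hp0 : p 0 = j := (h1 0 (Nat.zero_le _)).1
  have hR : ∀ k ≤ N, R (p k) := by
    intro k hk
    rcases k with _ | k
    · rw [hp0]; exact hj
    · exact (h1 _ hk).pred.1
  have key : ∀ m k (s : Finset J), k + 2 * m ≤ N → (∀ i ≤ m, Disjoint (U (p (k + 2 * i))) s) →
      W U R m (p k) s := by
    intro m
    induction m with
    | zero => intro k s hk hd; exact ⟨hR k (by omega), by simpa using hd 0 le_rfl⟩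
    | succ m ih =>
      intro k s hk hd
      refine ⟨⟨hR k (by omega), by simpa using hd 0 (Nat.zero_le _)⟩, p (k + 2),
        ball_trans (m := 8) (n := 8) (h2 k (by omega)) (h2 (k + 1) (by omega)), ?_⟩
      convert ih (k + 2) (s ∪ U (p k)) (by omega) fun i hi => ?_
      rw [Finset.disjoint_union_right]
      refine ⟨?_, disjoint_of_not_mem_ball hs fun hb => ?_⟩
      · have := hd (i + 1) (by omega)
        rwa [show k + 2 * (i + 1) = k + 2 + 2 * i by ring] at this
      · exact (h1 k (by omega)).far (h1 (k + 2 + 2 * i) (by omega)) (by omega)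
          (ball_mono hr (by norm_num) hb)
  have := key n 0 ∅ (by omega) fun i _ => Finset.disjoint_empty_right _
  rwa [hp0] at this

end Crest.Agent.R192.L
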