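import Crest.Agent.R192.L.Ball

/-!
R192/L/Prob: events depending on finitely many coordinates, the symmetric Lovász local lemma, and almost sure
finiteness of clusters.
-/

set_option autoImplicit false

open MeasureTheory ProbabilityTheory
open scoped ENNReal

noncomputable section

namespace Crest.Agent.R192.L

variable {J S : Type}

/-- `A` depends only on the coordinates in `s` -/
def Dep (A : Set (J → S)) (s : Finset J) : Prop :=
  ∀ η η', (∀ i ∈ s, η i = η' i) → η ∈ A → η' ∈ A

theorem Dep.eq_preimage {A : Set (J → S)} {s : Finset J} (h : Dep A s) :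
    A = (fun η (i : s) => η i) ⁻¹' ((fun η (i : s) => η i) '' A) := by
  ext η
  constructor
  · intro hη; exact ⟨η, hη, rfl⟩
  · rintro ⟨η', hη', he⟩
    exact h η' η (fun i hi => congrFun he ⟨i, hi⟩) hη'

theorem Dep.compl {A : Set (J → S)} {s : Finset J} (h : Dep A s) : Dep Aᶜ s :=
  fun η η' he hη hη' => hη (h η' η (fun i hi => (he i hi).symm) hη')

theorem Dep.mono {A : Set (J → S)} {s t : Finset J} (h : Dep A s) (hst : s ⊆ t) : Dep A t :=
  fun η η' he hη => h η η' (fun i hi => he i (hst hi)) hη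

variable [Fintype S] [MeasurableSpace S] [DiscreteMeasurableSpace S]

theorem Dep.measurableSet {A : Set (J → S)} {s : Finset J} (h : Dep A s) : MeasurableSet A := by
  rw [h.eq_preimage]
  exact (show Measurable (fun (η : J → S) (i : s) => η i) by fun_prop) MeasurableSet.of_discrete

theorem Dep.indep (ν : Measure S) [IsProbabilityMeasure ν] {A B : Set (J → S)} {s t : Finset J}
    (hA : Dep A s) (hB : Dep B t) (hst : Disjoint s t) :
    (Measure.infinitePi fun _ : J => ν).real (A ∩ B) =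
      (Measure.infinitePi fun _ : J => ν).real A * (Measure.infinitePi fun _ : J => ν).real B := by
  have h1 : iIndepFun (fun (i : J) (η : J → S) => η i) (Measure.infinitePi fun _ : J => ν) :=
    iIndepFun_infinitePi (X := fun _ x => x) (by fun_prop)
  have h2 := h1.indepFun_finset s t hst (by fun_prop)
  rw [indepFun_iff_measure_inter_preimage_eq_mul] at h2
  have h3 := h2 ((fun η (i : s) => η i) '' A) ((fun η (i : t) => η i) '' B) MeasurableSet.of_discrete
    MeasurableSet.of_discrete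
  rw [← hA.eq_preimage, ← hB.eq_preimage] at h3
  simp only [Measure.real, h3, ENNReal.toReal_mul]

/-- all of the events indexed by `A` are avoided -/
def Gd (Bad : J → Set (J → S)) (A : Finset J) : Set (J → S) := {η | ∀ c ∈ A, η ∉ Bad c}

omit [Fintype S] [MeasurableSpace S] [DiscreteMeasurableSpace S] in
open Classical in
theorem dep_Gd {U : J → Finset J} {Bad : J → Set (J → S)} (hB : ∀ j, Dep (Bad j) (U j)) (A : Finset J) :
    Dep (Gd Bad A) (A.biUnion U) := fun η η' he hη c hc =>
  ((hB c).compl.mono (Finset.subset_biUnion_of_mem U hc)) η η' he (hη c hc)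

section LLL
variable (ν : Measure S) [IsProbabilityMeasure ν] {U : J → Finset J} {Δ : ℕ}
  (hs : ∀ i j, i ∈ U j → j ∈ U i) (hΔ : ∀ j, (U j).card ≤ Δ) {Bad : J → Set (J → S)}
  (hB : ∀ j, Dep (Bad j) (U j)) {p : ℝ} (hp : ∀ j, (Measure.infinitePi fun _ : J => ν).real (Bad j) ≤ p)
include hs hΔ hB hp

theorem lll_step (h4 : 4 * p * (Δ : ℝ) ^ 2 ≤ 1) (A : Finset J) (i : J) :
    (Measure.infinitePi fun _ : J => ν).real (Bad i ∩ Gd Bad A) ≤
      2 * p * (Measure.infinitePi fun _ : J => ν).real (Gd Bad A) := by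
  classical
  set μ := Measure.infinitePi fun _ : J => ν with hμ
  induction A using Finset.strongInduction generalizing i with
  | H A ih =>
    have hp0 : 0 ≤ p := measureReal_nonneg.trans (hp i)
    set A1 := A.filter (· ∈ ball U 2 i) with hA1
    set A2 := A.filter (· ∉ ball U 2 i) with hA2
    have hind : μ.real (Bad i ∩ Gd Bad A2) ≤ p * μ.real (Gd Bad A2) := by
      rw [hμ, Dep.indep ν (hB i) (dep_Gd hB A2)]
      · exact mul_le_mul_of_nonneg_right (hp i) measureReal_nonneg
      · rw [Finset.disjoint_biUnion_right]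
        intro c hc
        exact (disjoint_of_not_mem_ball hs (Finset.mem_filter.1 hc).2).symm
    have hsub : μ.real (Bad i ∩ Gd Bad A) ≤ μ.real (Bad i ∩ Gd Bad A2) :=
      measureReal_mono (Set.inter_subset_inter_right _ fun η hη c hc => hη c (Finset.mem_filter.1 hc).1)
    have h2 : μ.real (Gd Bad A2) ≤ 2 * μ.real (Gd Bad A) := by
      by_cases hA : A2 = A
      · rw [hA]; linarith [measureReal_nonneg (μ := μ) (s := Gd Bad A)]
      · have hlt : A2 ⊂ A := Finset.ssubset_iff_subset_ne.2 ⟨Finset.filter_subset _ _, hA⟩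
        have hcov : Gd Bad A2 ⊆ Gd Bad A ∪ ⋃ j ∈ A1, (Bad j ∩ Gd Bad A2) := by
          intro η hη
          by_cases h : η ∈ Gd Bad A
          · exact Or.inl h
          · right
            simp only [Gd, Set.mem_ofPred_eq, not_forall, not_not] at h
            obtain ⟨c, hc, hη'⟩ := h
            refine Set.mem_biUnion (show c ∈ (A1 : Set J) from ?_) ⟨hη', hη⟩
            refine Finset.mem_coe.2 (Finset.mem_filter.2 ⟨hc, ?_⟩)
            by_contra hcb
            exact hη c (Finset.mem_filter.2 ⟨hc, hcb⟩) hη'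
        have h3 := (measureReal_mono (μ := μ) hcov).trans (measureReal_union_le _ _)
        have h5 : μ.real (⋃ j ∈ A1, (Bad j ∩ Gd Bad A2)) ≤ ∑ j ∈ A1, μ.real (Bad j ∩ Gd Bad A2) :=
          measureReal_biUnion_finset_le _ _
        have h6 : ∑ j ∈ A1, μ.real (Bad j ∩ Gd Bad A2) ≤ A1.card • (2 * p * μ.real (Gd Bad A2)) :=
          Finset.sum_le_card_nsmul _ _ _ fun j _ => ih A2 hlt j
        have h7 : (A1.card : ℝ) ≤ (Δ : ℝ) ^ 2 := by
          have : A1.card ≤ Δ ^ 2 :=
            (Finset.card_le_card fun c hc => (Finset.mem_filter.1 hc).2).trans (card_ball hΔ 2 i)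
          exact_mod_cast this
        rw [nsmul_eq_mul] at h6
        have h8 : 0 ≤ μ.real (Gd Bad A2) := measureReal_nonneg
        have h9 : (A1.card : ℝ) * (2 * p * μ.real (Gd Bad A2)) ≤ (Δ : ℝ) ^ 2 * (2 * p * μ.real (Gd Bad A2)) :=
          mul_le_mul_of_nonneg_right h7 (by positivity)
        nlinarith
    calc μ.real (Bad i ∩ Gd Bad A) ≤ p * μ.real (Gd Bad A2) := hsub.trans hind
      _ ≤ p * (2 * μ.real (Gd Bad A)) := mul_le_mul_of_nonneg_left h2 hp0
      _ = _ := by ring

theorem lll (h4 : 4 * p * (Δ : ℝ) ^ 2 ≤ 1) (h2 : 2 * p < 1) (A : Finset J) :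
    0 < (Measure.infinitePi fun _ : J => ν).real (Gd Bad A) := by
  classical
  set μ := Measure.infinitePi fun _ : J => ν with hμ
  induction A using Finset.induction_on with
  | empty => simp [Gd]
  | insert i A _ ih =>
    have h1 := lll_step ν hs hΔ hB hp h4 A i
    have hcov : Gd Bad A ⊆ Gd Bad (insert i A) ∪ (Bad i ∩ Gd Bad A) := by
      intro η hη
      by_cases h : η ∈ Bad i
      · exact Or.inr ⟨h, hη⟩
      · left
        intro c hc
        rcases Finset.mem_insert.1 hc with rfl | hc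
        · exact h
        · exact hη c hc
    have h3 := (measureReal_mono (μ := μ) hcov).trans (measureReal_union_le _ _)
    nlinarith

omit hs hΔ hp [Fintype S] [MeasurableSpace S] [DiscreteMeasurableSpace S] in
theorem dep_W (n : ℕ) (x : J) (s : Finset J) :
    ∃ t : Finset J, Disjoint t s ∧ Dep {η | W U (fun j => η ∈ Bad j) n x s} t := by
  classical
  induction n generalizing x s with
  | zero =>
    by_cases hd : Disjoint (U x) s
    · exact ⟨U x, hd, fun η η' he hη => ⟨hB x η η' he hη.1, hd⟩⟩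
    · exact ⟨∅, Finset.disjoint_empty_left _, fun η η' _ hη => absurd hη.2 hd⟩
  | succ n ih =>
    by_cases hd : Disjoint (U x) s
    · choose t ht1 ht2 using fun y => ih y (s ∪ U x)
      refine ⟨U x ∪ (ball U 16 x).biUnion t, ?_, fun η η' he hη => ?_⟩
      · rw [Finset.disjoint_union_left, Finset.disjoint_biUnion_left]
        exact ⟨hd, fun y _ => (ht1 y).mono_right Finset.subset_union_left⟩
      · obtain ⟨⟨h1, -⟩, y, hy, h2⟩ := hη
        refine ⟨⟨hB x η η' (fun i hi => he i (Finset.mem_union_left _ hi)) h1, hd⟩, y, hy, ?_⟩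
        exact ht2 y η η' (fun i hi => he i (Finset.mem_union_right _
          (Finset.mem_biUnion.2 ⟨y, hy, hi⟩))) h2
    · exact ⟨∅, Finset.disjoint_empty_left _, fun η η' _ hη => absurd hη.1.2 hd⟩

omit hs in
theorem prob_W (n : ℕ) (x : J) (s : Finset J) :
    (Measure.infinitePi fun _ : J => ν).real {η | W U (fun j => η ∈ Bad j) n x s} ≤
      ((Δ : ℝ) ^ 16 * p) ^ n := by
  classical
  set μ := Measure.infinitePi fun _ : J => ν with hμ
  induction n generalizing x s with
  | zero => simp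
  | succ n ih =>
    have hp0 : 0 ≤ p := measureReal_nonneg.trans (hp x)
    have hcov : {η | W U (fun j => η ∈ Bad j) (n + 1) x s} ⊆
        ⋃ y ∈ ball U 16 x, (Bad x ∩ {η | W U (fun j => η ∈ Bad j) n y (s ∪ U x)}) := by
      rintro η ⟨⟨h1, -⟩, y, hy, h2⟩
      exact Set.mem_biUnion (Finset.mem_coe.2 hy) ⟨h1, h2⟩
    have h3 := (measureReal_mono (μ := μ) hcov (measure_ne_top _ _)).trans
      (measureReal_biUnion_finset_le _ _)
    have h6 : ∑ y ∈ ball U 16 x, μ.real (Bad x ∩ {η | W U (fun j => η ∈ Bad j) n y (s ∪ U x)}) ≤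
        (ball U 16 x).card • (p * ((Δ : ℝ) ^ 16 * p) ^ n) := by
      refine Finset.sum_le_card_nsmul _ _ _ fun y _ => ?_
      obtain ⟨t, ht1, ht2⟩ := dep_W hB n y (s ∪ U x)
      rw [hμ, Dep.indep ν (hB x) ht2 (ht1.mono_right Finset.subset_union_right).symm]
      exact mul_le_mul (hp x) (ih y _) measureReal_nonneg hp0
    have h7 : ((ball U 16 x).card : ℝ) ≤ (Δ : ℝ) ^ 16 := by exact_mod_cast card_ball hΔ 16 x
    rw [nsmul_eq_mul] at h6
    calc _ ≤ _ := h3.trans h6
      _ ≤ (Δ : ℝ) ^ 16 * (p * ((Δ : ℝ) ^ 16 * p) ^ n) := mul_le_mul_of_nonneg_right h7 (by positivity)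
      _ = _ := by ring

theorem ae_finite [Countable J] (hr : ∀ j, j ∈ U j) (h16 : (Δ : ℝ) ^ 16 * p < 1) :
    ∀ᵐ η ∂(Measure.infinitePi fun _ : J => ν), ∀ j, η ∈ Bad j →
      {x | K U (fun j => η ∈ Bad j) j x}.Finite := by
  rw [ae_all_iff]
  intro j
  set μ := Measure.infinitePi fun _ : J => ν with hμ
  have hp0 : 0 ≤ p := measureReal_nonneg.trans (hp j)
  rw [ae_iff, ← measureReal_eq_zero_iff]
  refine le_antisymm ?_ measureReal_nonneg
  refine ge_of_tendsto' (tendsto_pow_atTop_nhds_zero_of_lt_one (by positivity) h16) fun n => ?_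
  refine (measureReal_mono ?_).trans (prob_W ν hΔ hB hp n j ∅)
  intro η hη
  simp only [Set.mem_ofPred_eq, not_forall] at hη
  obtain ⟨h1, h2⟩ := hη
  exact W_of_infinite hr hs h1 h2 n

theorem ae_layer [Countable J] (h4 : 4 * p * (Δ : ℝ) ^ 2 ≤ 1) (h2 : 2 * p < 1) :
    ∀ᵐ ξ ∂(Measure.infinitePi fun _ : ℕ => Measure.infinitePi fun _ : J => ν), ∀ A : Finset J,
      ∃ l, ξ l ∈ Gd Bad A := by
  classical
  rw [ae_all_iff]
  intro A
  set μ := Measure.infinitePi fun _ : J => ν with hμ
  have hm : MeasurableSet (Gd Bad A) := (dep_Gd hB A).measurableSet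
  have hpos := lll ν hs hΔ hB hp h4 h2 A
  have hlt : μ.real (Gd Bad A)ᶜ < 1 := by
    rw [probReal_compl_eq_one_sub hm]; linarith
  rw [ae_iff, ← measureReal_eq_zero_iff]
  refine le_antisymm ?_ measureReal_nonneg
  refine ge_of_tendsto' (tendsto_pow_atTop_nhds_zero_of_lt_one measureReal_nonneg hlt) fun n => ?_
  have hsub : {ξ : ℕ → J → S | ¬∃ l, ξ l ∈ Gd Bad A} ⊆
      Set.pi (Finset.range n : Set ℕ) fun _ => (Gd Bad A)ᶜ :=
    fun ξ hξ l _ hl => hξ ⟨l, hl⟩
  refine (measureReal_mono hsub).trans (le_of_eq ?_)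
  rw [Measure.real, Measure.infinitePi_pi _ fun _ _ => hm.compl]
  simp [Measure.real]

end LLL

end Crest.Agent.R192.L
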