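import Crest.Agent.R192.Iface
import Crest.Agent.R192.L.Prob

/-!
R192/L/Main: the invariant two-phase random field (block L).
-/

set_option autoImplicit false

open MeasureTheory ProbabilityTheory
open scoped ENNReal

noncomputable section

namespace Crest.Agent.R192

namespace L

variable {J S : Type}

section Defs
variable (U : J → Finset J) (Bad : J → Set (J → S))

/-- bad points of the layer `0` -/
def R0 (ξ : ℕ → J → S) (j : J) : Prop := ξ 0 ∈ Bad j

/-- the layer `l` is good around the cluster of `j` -/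
def GdL (ξ : ℕ → J → S) (j : J) (l : ℕ) : Prop :=
  ∀ x, K U (R0 Bad ξ) j x → ∀ c ∈ ball U 4 x, ξ l ∉ Bad c

def Least (ξ : ℕ → J → S) (j : J) (l : ℕ) : Prop := GdL U Bad ξ j l ∧ ∀ l' < l, ¬ GdL U Bad ξ j l'

def Ph1 (ξ : ℕ → J → S) (i : J) (s : S) : Prop :=
  ∃ j ∈ ball U 3 i, R0 Bad ξ j ∧ ∃ l, Least U Bad ξ j l ∧ s = ξ l i

open Classical in
def f0 (ξ : ℕ → J → S) (i : J) : Option S := if ∃ j ∈ U i, R0 Bad ξ j then none else some (ξ 0 i)

open Classical in
def f1 (ξ : ℕ → J → S) (i : J) : Option S :=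
  if h : ∃ s, Ph1 U Bad ξ i s then some h.choose else none

def fld (ξ : ℕ → J → S) (i : J) (p : Fin 2) : Option S := if p = 0 then f0 U Bad ξ i else f1 U Bad ξ i

end Defs

variable {U : J → Finset J} {Bad : J → Set (J → S)}

theorem Least.unique (hs : ∀ i j, i ∈ U j → j ∈ U i) {ξ : ℕ → J → S} {j j' : J} {l l' : ℕ}
    (hj : R0 Bad ξ j) (hj' : R0 Bad ξ j') (h : j' ∈ ball U 8 j) (h1 : Least U Bad ξ j l)
    (h2 : Least U Bad ξ j' l') : l = l' := by
  have key : ∀ m, GdL U Bad ξ j m ↔ GdL U Bad ξ j' m := fun m =>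
    ⟨fun hG x hx => hG x (K_of_near hj' h hx), fun hG x hx => hG x (K_of_near hj (ball_symm hs h) hx)⟩
  rcases lt_trichotomy l l' with hl | hl | hl
  · exact absurd ((key l).1 h1.1) (h2.2 l hl)
  · exact hl
  · exact absurd ((key l').2 h2.1) (h1.2 l' hl)

theorem Ph1.unique (hr : ∀ j, j ∈ U j) (hs : ∀ i j, i ∈ U j → j ∈ U i) {ξ : ℕ → J → S} {i : J} {s s' : S}
    (h : Ph1 U Bad ξ i s) (h' : Ph1 U Bad ξ i s') : s = s' := by
  obtain ⟨j, hj, hR, l, hl, rfl⟩ := h
  obtain ⟨j', hj', hR', l', hl', rfl⟩ := h'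
  rw [Least.unique hs hR hR' (ball_mono hr (by norm_num) (ball_trans (ball_symm hs hj) hj')) hl hl']

theorem f1_eq_some (hr : ∀ j, j ∈ U j) (hs : ∀ i j, i ∈ U j → j ∈ U i) {ξ : ℕ → J → S} {i : J} {s : S} :
    f1 U Bad ξ i = some s ↔ Ph1 U Bad ξ i s := by
  unfold f1
  split_ifs with h
  · rw [Option.some_inj]
    exact ⟨fun he => he ▸ h.choose_spec, fun hs' => h.choose_spec.unique hr hs hs'⟩
  · exact ⟨fun he => absurd he (by simp), fun hs' => absurd ⟨s, hs'⟩ h⟩

theorem f1_eq_none {ξ : ℕ → J → S} {i : J} : f1 U Bad ξ i = none ↔ ¬ ∃ s, Ph1 U Bad ξ i s := by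
  unfold f1
  split_ifs with h
  · simp [h]
  · simp only [h, not_false_eq_true]

/-- the deterministic check -/
theorem check (hr : ∀ j, j ∈ U j) (hs : ∀ i j, i ∈ U j → j ∈ U i) (hne : ∀ j, ∃ η, η ∉ Bad j)
    {ξ : ℕ → J → S} (hfin : ∀ j, R0 Bad ξ j → {x | K U (R0 Bad ξ) j x}.Finite)
    (hlay : ∀ A : Finset J, ∃ l, ξ l ∈ Gd Bad A) (c : J) :
    (∀ p, ∃ η ∉ Bad c, ∀ i ∈ U c, fld U Bad ξ i p = none ∨ fld U Bad ξ i p = some (η i)) ∧
      ∃ p, ∀ i ∈ U c, fld U Bad ξ i p ≠ none := by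
  classical
  have hleast : ∀ j, R0 Bad ξ j → ∃ l, Least U Bad ξ j l := by
    intro j hj
    have hex : ∃ l, GdL U Bad ξ j l := by
      obtain ⟨l, hl⟩ := hlay ((hfin j hj).toFinset.biUnion (ball U 4))
      exact ⟨l, fun x hx c hc => hl c (Finset.mem_biUnion.2 ⟨x, (hfin j hj).mem_toFinset.2 hx, hc⟩)⟩
    exact ⟨Nat.find hex, Nat.find_spec hex, fun l' hl' => Nat.find_min hex hl'⟩
  refine ⟨fun p => ?_, ?_⟩
  · by_cases hp : p = 0
    · simp only [fld, hp, if_true]
      by_cases hc : R0 Bad ξ c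
      · obtain ⟨η, hη⟩ := hne c
        refine ⟨η, hη, fun i hi => Or.inl ?_⟩
        unfold f0
        rw [if_pos ⟨c, hs _ _ hi, hc⟩]
      · refine ⟨ξ 0, hc, fun i _ => ?_⟩
        unfold f0
        split_ifs
        · exact Or.inl rfl
        · exact Or.inr rfl
    · simp only [fld, hp, if_false]
      by_cases hex : ∃ i ∈ U c, ∃ s, Ph1 U Bad ξ i s
      · obtain ⟨i0, hi0, s0, j, hj, hR, l, hl, -⟩ := hex
        have hjc : j ∈ ball U 4 c := ball_trans (m := 1) (n := 3) (mem_ball_one.2 hi0) hj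
        refine ⟨ξ l, hl.1 j (K_self _ _ _) c (ball_symm hs hjc), fun i hi => ?_⟩
        by_cases h1 : ∃ s, Ph1 U Bad ξ i s
        · right
          obtain ⟨s, j', hj', hR', l', hl', -⟩ := h1
          have hjc' : j' ∈ ball U 4 c := ball_trans (m := 1) (n := 3) (mem_ball_one.2 hi) hj'
          have := Least.unique hs hR hR' (ball_trans (m := 4) (n := 4) (ball_symm hs hjc) hjc') hl hl'
          subst this
          exact (f1_eq_some hr hs).2 ⟨j', hj', hR', l, hl', rfl⟩
        · exact Or.inl (f1_eq_none.2 h1)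
      · obtain ⟨η, hη⟩ := hne c
        exact ⟨η, hη, fun i hi => Or.inl (f1_eq_none.2 fun h => hex ⟨i, hi, h⟩)⟩
  · by_cases h0 : ∃ i ∈ U c, ∃ j ∈ U i, R0 Bad ξ j
    · obtain ⟨i0, hi0, j, hj, hR⟩ := h0
      obtain ⟨l, hl⟩ := hleast j hR
      refine ⟨1, fun i hi => ?_⟩
      simp only [fld, one_ne_zero, if_false, ne_eq, f1_eq_none, not_not]
      refine ⟨ξ l i, j, ?_, hR, l, hl, rfl⟩
      exact mem_ball_succ.2 ⟨i0, mem_ball_succ.2 ⟨c, mem_ball_one.2 (hs _ _ hi), hi0⟩, hj⟩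
    · refine ⟨0, fun i hi => ?_⟩
      simp only [fld, if_true]
      unfold f0
      rw [if_neg fun h => h0 ⟨i, hi, h⟩]
      simp

/-! ### equivariance -/

section Equiv
variable (π : J ≃ J) (hπ : ∀ i j, π i ∈ U (π j) ↔ i ∈ U j)
  (hB : ∀ j η, (fun i => η (π.symm i)) ∈ Bad (π j) ↔ η ∈ Bad j)
include hπ hB

theorem GL_equiv (ξ : ℕ → J → S) (j : J) (l : ℕ) :
    GdL U Bad (fun l i => ξ l (π.symm i)) (π j) l ↔ GdL U Bad ξ j l := by
  have hR : ∀ j, R0 Bad (fun l i => ξ l (π.symm i)) (π j) ↔ R0 Bad ξ j := fun j => hB j (ξ 0)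
  constructor
  · intro h x hx c hc hb
    exact h (π x) ((K_equiv π hπ hR j x).2 hx) (π c) ((ball_equiv π hπ _ _ _).2 hc) ((hB c (ξ l)).2 hb)
  · intro h x hx c hc hb
    obtain ⟨x, rfl⟩ := π.surjective x
    obtain ⟨c, rfl⟩ := π.surjective c
    exact h x ((K_equiv π hπ hR j x).1 hx) c ((ball_equiv π hπ _ _ _).1 hc) ((hB c (ξ l)).1 hb)

theorem Ph1_equiv (ξ : ℕ → J → S) (i : J) (s : S) :
    Ph1 U Bad (fun l i => ξ l (π.symm i)) (π i) s ↔ Ph1 U Bad ξ i s := by
  have hR : ∀ j, R0 Bad (fun l i => ξ l (π.symm i)) (π j) ↔ R0 Bad ξ j := fun j => hB j (ξ 0)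
  have hL : ∀ j l, Least U Bad (fun l i => ξ l (π.symm i)) (π j) l ↔ Least U Bad ξ j l := fun j l => by
    simp only [Least, GL_equiv π hπ hB]
  constructor
  · rintro ⟨j, hj, h1, l, h2, h3⟩
    obtain ⟨j, rfl⟩ := π.surjective j
    exact ⟨j, (ball_equiv π hπ _ _ _).1 hj, (hR j).1 h1, l, (hL j l).1 h2, by simpa using h3⟩
  · rintro ⟨j, hj, h1, l, h2, h3⟩
    exact ⟨π j, (ball_equiv π hπ _ _ _).2 hj, (hR j).2 h1, l, (hL j l).2 h2, by simpa using h3⟩

theorem fld_equiv (hr : ∀ j, j ∈ U j) (hs : ∀ i j, i ∈ U j → j ∈ U i) (ξ : ℕ → J → S) :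
    fld U Bad (fun l i => ξ l (π.symm i)) = fun i => fld U Bad ξ (π.symm i) := by
  have hR : ∀ j, R0 Bad (fun l i => ξ l (π.symm i)) (π j) ↔ R0 Bad ξ j := fun j => hB j (ξ 0)
  funext i p
  obtain ⟨i, rfl⟩ := π.surjective i
  rw [Equiv.symm_apply_apply]
  unfold fld
  split_ifs
  · have h1 : (∃ j ∈ U (π i), R0 Bad (fun l i => ξ l (π.symm i)) j) ↔ ∃ j ∈ U i, R0 Bad ξ j := by
      constructor
      · rintro ⟨j, hj, h⟩
        obtain ⟨j, rfl⟩ := π.surjective j
        exact ⟨j, (hπ _ _).1 hj, (hR j).1 h⟩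
      · rintro ⟨j, hj, h⟩
        exact ⟨π j, (hπ _ _).2 hj, (hR j).2 h⟩
    unfold f0
    by_cases h2 : ∃ j ∈ U i, R0 Bad ξ j
    · rw [if_pos h2, if_pos (h1.2 h2)]
    · rw [if_neg h2, if_neg fun h => h2 (h1.1 h)]
      simp only [Equiv.symm_apply_apply]
  · ext s
    rw [f1_eq_some hr hs, f1_eq_some hr hs, Ph1_equiv π hπ hB]

end Equiv

/-! ### measurability -/

section Meas
variable [Countable J] [Fintype S] [MeasurableSpace S] [DiscreteMeasurableSpace S]
  (hB : ∀ j, Dep (Bad j) (U j))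
include hB

omit [Countable J] in
theorem meas_bad (l : ℕ) (j : J) : Measurable fun ξ : ℕ → J → S => ξ l ∈ Bad j :=
  (measurableSet_setOfPred.1 (hB j).measurableSet).comp (measurable_pi_apply l)

theorem meas_V (n : ℕ) (j x : J) : Measurable fun ξ : ℕ → J → S => V U (R0 Bad ξ) n j x := by
  induction n generalizing x with
  | zero => exact measurable_const
  | succ n ih =>
    exact (ih x).or ((meas_bad hB 0 x).and (Measurable.exists fun y => (ih y).and measurable_const))

theorem meas_GL (j : J) (l : ℕ) : Measurable fun ξ : ℕ → J → S => GdL U Bad ξ j l :=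
  Measurable.forall fun x => (Measurable.exists fun n => meas_V hB n j x).imp
    (Measurable.forall fun c => measurable_const.imp (meas_bad hB l c).not)

theorem meas_Ph1 (i : J) (s : S) : Measurable fun ξ : ℕ → J → S => Ph1 U Bad ξ i s := by
  refine Measurable.exists fun j => measurable_const.and ((meas_bad hB 0 j).and
    (Measurable.exists fun l => ((meas_GL hB j l).and
      (Measurable.forall fun l' => measurable_const.imp (meas_GL hB j l').not)).and ?_))
  exact (Measurable.of_discrete (f := fun t : S => s = t)).comp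
    ((measurable_pi_apply i).comp (measurable_pi_apply l))

theorem meas_fld (hr : ∀ j, j ∈ U j) (hs : ∀ i j, i ∈ U j → j ∈ U i) : Measurable (fld U Bad) := by
  refine measurable_pi_lambda _ fun i => measurable_pi_lambda _ fun p => ?_
  unfold fld
  split_ifs
  · unfold f0
    refine Measurable.ite (measurableSet_setOfPred.2 (Measurable.exists fun j =>
      measurable_const.and (meas_bad hB 0 j))) measurable_const ?_
    exact (Measurable.of_discrete (f := fun t : S => some t)).comp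
      ((measurable_pi_apply i).comp (measurable_pi_apply 0))
  · refine measurable_to_countable' fun o => ?_
    rcases o with _ | s
    · have : (fun ξ => f1 U Bad ξ i) ⁻¹' {none} = {ξ | ¬ ∃ s, Ph1 U Bad ξ i s} := by
        ext ξ; exact f1_eq_none
      rw [this]
      exact measurableSet_setOfPred.2 (Measurable.exists fun s => meas_Ph1 hB i s).not
    · have : (fun ξ => f1 U Bad ξ i) ⁻¹' {some s} = {ξ | Ph1 U Bad ξ i s} := by
        ext ξ; exact f1_eq_some hr hs
      rw [this]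
      exact measurableSet_setOfPred.2 (meas_Ph1 hB i s)

omit hB [MeasurableSpace S] [DiscreteMeasurableSpace S] in
theorem meas_good : MeasurableSet {f : J → Fin 2 → Option S |
    ∀ j, (∀ p, ∃ η ∉ Bad j, ∀ i ∈ U j, f i p = none ∨ f i p = some (η i)) ∧
      ∃ p, ∀ i ∈ U j, f i p ≠ none} := by
  rw [Set.ofPred_forall]
  refine MeasurableSet.iInter fun j => ?_
  have : DiscreteMeasurableSpace (Option S) := ⟨fun _ => trivial⟩
  refine Dep.measurableSet (S := Fin 2 → Option S) (s := U j) ?_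
  rintro f f' he ⟨h1, p, h2⟩
  refine ⟨fun p => ?_, p, fun i hi => he i hi ▸ h2 i hi⟩
  obtain ⟨η, hη, h⟩ := h1 p
  exact ⟨η, hη, fun i hi => he i hi ▸ h i hi⟩

end Meas

end L

open L in
theorem stL : StL := by
  intro J S _ _ _ _ _ U Δ hr hs hΔ Bad hB hP
  set ν : Measure S := uniformOn Set.univ with hν
  have : IsProbabilityMeasure ν := isProbabilityMeasure_uniformOn Set.finite_univ Set.univ_nonempty
  set μ := Measure.infinitePi fun _ : J => ν with hμ
  set p : ℝ := 1 / (4 * (Δ : ℝ) ^ 16) with hpdef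
  have hp0 : 0 ≤ p := by positivity
  have hp : ∀ j, μ.real (Bad j) ≤ p := fun j => ENNReal.toReal_le_of_le_ofReal hp0 (hP j)
  have h16' : (Δ : ℝ) ^ 16 * p ≤ 1 / 4 := by
    rcases Nat.eq_zero_or_pos Δ with h | h
    · simp [hpdef, h]
    · have : (0 : ℝ) < Δ := by exact_mod_cast h
      rw [hpdef]; apply le_of_eq; field_simp
  have h16 : (Δ : ℝ) ^ 16 * p < 1 := by linarith
  have hpow : ∀ k ≤ 16, (Δ : ℝ) ^ k * p ≤ 1 / 4 := by
    intro k hk
    rcases Nat.eq_zero_or_pos Δ with h | h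
    · simp [hpdef, h]
    · have : (1 : ℝ) ≤ Δ := by exact_mod_cast h
      exact (mul_le_mul_of_nonneg_right (pow_le_pow_right₀ this hk) hp0).trans h16'
  have h4 : 4 * p * (Δ : ℝ) ^ 2 ≤ 1 := by have := hpow 2 (by norm_num); linarith
  have h2 : 2 * p < 1 := by have := hpow 0 (by norm_num); linarith
  have hne : ∀ j, ∃ η, η ∉ Bad j := by
    intro j
    by_contra hc
    push Not at hc
    have h1 := hp j
    rw [Set.eq_univ_of_forall hc, probReal_univ] at h1
    linarith
  have hm := meas_fld (U := U) (Bad := Bad) hB hr hs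
  refine ⟨(Measure.infinitePi fun _ : ℕ => μ).map (fld U Bad),
    Measure.isProbabilityMeasure_map hm.aemeasurable, fun π hπ hπB => ?_, ?_⟩
  · have hmπ : Measurable fun (f : J → Fin 2 → Option S) i => f (π.symm i) := by fun_prop
    have hmπ' : Measurable fun (η : J → S) i => η (π.symm i) := by fun_prop
    refine ⟨hmπ, ?_⟩
    have e1 : μ.map (fun (η : J → S) i => η (π.symm i)) = μ :=
      Measure.map_infinitePi_infinitePi_of_inj π.symm.injective
    have e2 : (Measure.infinitePi fun _ : ℕ => μ).map (fun (ξ : ℕ → J → S) l i => ξ l (π.symm i)) =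
        Measure.infinitePi fun _ : ℕ => μ := by
      have := Measure.infinitePi_map_pi (fun _ : ℕ => μ) (f := fun _ (η : J → S) i => η (π.symm i))
        fun _ => hmπ'
      rw [e1] at this
      exact this
    rw [Measure.map_map hmπ hm]
    conv_rhs => rw [← e2]
    rw [Measure.map_map hm (by fun_prop)]
    congr 1
    funext ξ
    exact (fld_equiv π hπ hπB hr hs ξ).symm
  · rw [ae_map_iff hm.aemeasurable meas_good]
    have h1 := (measurePreserving_eval_infinitePi (fun _ : ℕ => μ) 0).quasiMeasurePreserving.ae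
      (ae_finite ν hs hΔ hB hp hr h16)
    filter_upwards [h1, ae_layer ν hs hΔ hB hp h4 h2] with ξ hξ1 hξ2
    exact check hr hs hne hξ1 hξ2

end Crest.Agent.R192
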